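import Vale.Agent.Helper11.SymSectionsE

/-!
# P243: cylinder coverings with coplanar axes

A compact convex set `K` in Euclidean 3-space is covered by a finite family of cylinders with
arbitrary bases.  The `i`-th cylinder is described by an orthonormal pair `(v i, w i)` spanning
the plane orthogonal to its axis, and by its base `B i`, a subset of the coordinate plane `ℝ × ℝ`
of that frame: the cylinder is the set of all `x` with `(⟪v i, x⟫, ⟪w i, x⟫) ∈ B i`, and the
orthogonal projection of `K` along its axis is, in the same coordinates, the image of `K` under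
`x ↦ (⟪v i, x⟫, ⟪w i, x⟫)`.  All axes are parallel to one plane: every axis is parallel to a
nonzero vector `d` orthogonal to the fixed nonzero vector `n`.  Then:

* if `K` has interior points, the sum of the ratios
  `area (B i) / area (projection of K along the i-th axis)` is at least `√2 / 4`;
* if moreover `K` is symmetric about a point `c`, this sum is at least `3 √2 / 8`, which is
  larger than `1 / 2`;
* if `K` has interior points and every section of `K` by a plane orthogonal to `n` is centrally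
  symmetric (for every `t` there is a point `c` with `⟪n, c⟫ = t` such that `c + c - x ∈ K` for
  all `x ∈ K` with `⟪n, x⟫ = t`), this sum is at least `1 / 2`, and at least `3 / 4` if moreover
  `K` is symmetric about a point;
* for every number `A` that is at most the area of the orthogonal projection of `K` along every
  direction `d` orthogonal to `n` (the projection along the axis of an orthonormal pair `(p, q)`
  is the image of `K` under `x ↦ (⟪p, x⟫, ⟪q, x⟫)`), the sum of the base areas is at least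
  `A / 2`, and at least `3 A / 4` if `K` is symmetric about a point `c`.

The proof slices `K` by the planes orthogonal to `n`.  In each slice the cylinders induce strips.
By Bang's plank theorem their widths add up to at least the minimal width of the slice, and this
minimal width is bounded from below through the concavity (and, for symmetric bodies, the
symmetry) of the section lengths of the projections of `K`.  The projection areas along the
directions orthogonal to `n` form a norm on a plane; John's theorem in the plane compares it with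
a Euclidean norm, and a linear change of coordinates turns the inequalities for the base areas
into the inequalities for the ratios.  If the slices are centrally symmetric, the plank theorem
for centrally symmetric planar convex bodies (proved here by a variational argument followed by
Bang's sign argument) shows that in each slice the widths of the strips, divided by the widths
of the slice in the same directions, add up to at least `1`; integrating over the slices gives
the bounds `1 / 2` and `3 / 4` for the ratios.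
-/

namespace Vale.Agent.Results.P243.CoplanarSections

open MeasureTheory
open scoped InnerProductSpace

theorem result (K : Set (EuclideanSpace ℝ (Fin 3))) (hK : Convex ℝ K) (hKc : IsCompact K)
    {ι : Type} [Fintype ι] (v w : ι → EuclideanSpace ℝ (Fin 3)) (B : ι → Set (ℝ × ℝ))
    (hv : ∀ i, ‖v i‖ = 1) (hw : ∀ i, ‖w i‖ = 1) (hvw : ∀ i, ⟪v i, w i⟫_ℝ = 0)
    (hcov : ∀ x ∈ K, ∃ i, (⟪v i, x⟫_ℝ, ⟪w i, x⟫_ℝ) ∈ B i)
    (n : EuclideanSpace ℝ (Fin 3)) (hn : n ≠ 0)
    (hax : ∀ i, ∃ d : EuclideanSpace ℝ (Fin 3),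
      d ≠ 0 ∧ ⟪n, d⟫_ℝ = 0 ∧ ⟪v i, d⟫_ℝ = 0 ∧ ⟪w i, d⟫_ℝ = 0) :
    ((interior K).Nonempty →
      ENNReal.ofReal (Real.sqrt 2 / 4) ≤ ∑ i, volume (B i) /
        volume ((fun x : EuclideanSpace ℝ (Fin 3) => (⟪v i, x⟫_ℝ, ⟪w i, x⟫_ℝ)) '' K)) ∧
    ((interior K).Nonempty → (∃ c : EuclideanSpace ℝ (Fin 3), ∀ x ∈ K, c + c - x ∈ K) →
      ENNReal.ofReal (3 * Real.sqrt 2 / 8) ≤ ∑ i, volume (B i) /
        volume ((fun x : EuclideanSpace ℝ (Fin 3) => (⟪v i, x⟫_ℝ, ⟪w i, x⟫_ℝ)) '' K)) ∧
    ((interior K).Nonempty →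
      (∀ t : ℝ, ∃ c : EuclideanSpace ℝ (Fin 3), ⟪n, c⟫_ℝ = t ∧
        ∀ x ∈ K, ⟪n, x⟫_ℝ = t → c + c - x ∈ K) →
      ENNReal.ofReal (1 / 2) ≤ ∑ i, volume (B i) /
        volume ((fun x : EuclideanSpace ℝ (Fin 3) => (⟪v i, x⟫_ℝ, ⟪w i, x⟫_ℝ)) '' K) ∧
      ((∃ c : EuclideanSpace ℝ (Fin 3), ∀ x ∈ K, c + c - x ∈ K) →
        ENNReal.ofReal (3 / 4) ≤ ∑ i, volume (B i) /
          volume ((fun x : EuclideanSpace ℝ (Fin 3) => (⟪v i, x⟫_ℝ, ⟪w i, x⟫_ℝ)) '' K))) ∧
    ∀ A : ENNReal,
      (∀ p q d : EuclideanSpace ℝ (Fin 3), ‖p‖ = 1 → ‖q‖ = 1 → ⟪p, q⟫_ℝ = 0 →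
        d ≠ 0 → ⟪n, d⟫_ℝ = 0 → ⟪p, d⟫_ℝ = 0 → ⟪q, d⟫_ℝ = 0 →
        A ≤ volume ((fun x : EuclideanSpace ℝ (Fin 3) => (⟪p, x⟫_ℝ, ⟪q, x⟫_ℝ)) '' K)) →
      A / 2 ≤ ∑ i, volume (B i) ∧
      ((∃ c : EuclideanSpace ℝ (Fin 3), ∀ x ∈ K, c + c - x ∈ K) →
        3 * A ≤ 4 * ∑ i, volume (B i)) := by
  have hsym : ∀ c : EuclideanSpace ℝ (Fin 3), (∀ x ∈ K, c + c - x ∈ K) →
      ∀ x ∈ K, (2 : ℝ) • c - x ∈ K := by
    intro c hc x hx
    rw [two_smul]
    exact hc x hx
  have h12 : ENNReal.ofReal (1 / 2) = (1 : ENNReal) / 2 := by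
    rw [ENNReal.ofReal_div_of_pos (by norm_num)]; simp
  have h34 : ENNReal.ofReal (3 / 4) = (3 : ENNReal) / 4 := by
    rw [ENNReal.ofReal_div_of_pos (by norm_num)]; simp
  refine ⟨fun hKi => ?_, fun hKi hc => ?_, fun hKi hsec => ?_, fun A hA => ⟨?_, fun hc => ?_⟩⟩
  · exact (Vale.Agent.Helper11.coplanar_rel (by simp) K hK hKc hKi v w B hv hw hvw n hn hax
      hcov).1
  · obtain ⟨c, hc⟩ := hc
    exact (Vale.Agent.Helper11.coplanar_rel (by simp) K hK hKc hKi v w B hv hw hvw n hn hax
      hcov).2 ⟨c, hsym c hc⟩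
  · have hsec' : ∀ t : ℝ, ∃ c : EuclideanSpace ℝ (Fin 3), ⟪n, c⟫_ℝ = t ∧
        ∀ x ∈ K, ⟪n, x⟫_ℝ = t → (2 : ℝ) • c - x ∈ K := by
      intro t
      obtain ⟨c, hct, hc⟩ := hsec t
      refine ⟨c, hct, fun x hx hxt => ?_⟩
      rw [two_smul]
      exact hc x hx hxt
    have main := Vale.Agent.Helper11.coplanar_symsec (by simp) K hK hKc hKi v w B hv hw hvw n hn
      hax hsec' hcov
    rw [h12, h34]
    refine ⟨main.1, ?_⟩
    rintro ⟨c, hc⟩
    exact main.2 ⟨c, hsym c hc⟩
  · exact Vale.Agent.Helper11.coplanar_abs (by simp) K hK hKc v w B hv hw hvw n hn hax hcov A hA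
  · obtain ⟨c, hc⟩ := hc
    exact Vale.Agent.Helper11.coplanar_sym_abs (by simp) K hK hKc c (hsym c hc) v w B hv hw hvw
      n hn hax hcov A hA

end Vale.Agent.Results.P243.CoplanarSections
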