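import Vale.Agent.Helper11.CoplanarAbs
import Vale.Agent.Helper11.TetraRegular
import Vale.Agent.Helper11.ParaSections
import Vale.Agent.Helper11.SymCyl
import Vale.Agent.Helper11.ManyCylSharp

/-!
# P243: lower bounds for cylinder coverings of convex bodies in Euclidean 3-space

A finite family of cylinders is described by orthonormal pairs `(v i, w i)` and bases `B i`: the
`i`-th cylinder is the set of all `x` whose coordinates `(⟪v i, x⟫, ⟪w i, x⟫)` in the plane
orthogonal to its axis lie in `B i`, a subset of `ℝ × ℝ`.  The orthogonal projection of a body `K`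
along that axis is, in the same coordinates, the image of `K` under `x ↦ (⟪v i, x⟫, ⟪w i, x⟫)`.
The directionwise relative area of the family is the sum of the ratios
`area (B i) / area (projection of K along the i-th axis)`.

For every convex body `K` and every finite covering of `K` by cylinders:

* if all axes are parallel to at most `d` given vectors, the relative area is at least every
  `x ∈ [0, 1]` with `3 x - 2 x √(x / d) ≤ 1` (at least `1 / 2` when `d = 2`);
* if `K` is centrally symmetric, the relative area is at least `5 / 12`;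
* if all sections of `K` by planes parallel to `e` and `f` are parallelograms with sides parallel
  to `e` and `f`, and all axes are parallel to these planes, the relative area is at least `1 / 2`;
* if all axes are orthogonal to a fixed nonzero vector `n` (the axes are parallel to one plane),
  the total base area is at least `A / 2` for every number `A` that is at most the area of the
  orthogonal projection of `K` along every direction orthogonal to `n`.

For every tetrahedron `K` and every finite covering of `K` by cylinders: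

* the relative area is at least `343 / 1000`;
* it is at least `1 / 2` if every axis is parallel to an edge of `K`;
* it is at least `1 / 2` if every axis is parallel to the plane spanned by two opposite edges;
* if `K` is regular, the total base area is at least `79 / 200` times any number that is at most
  the area of every orthogonal projection of `K`.
-/

namespace Vale.Agent.Results.P243.CylinderCoverings

open MeasureTheory
open scoped InnerProductSpace

/-- Euclidean 3-space. -/
abbrev E3 : Type := EuclideanSpace ℝ (Fin 3)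

/-- The coordinates `(⟪v, x⟫, ⟪w, x⟫)` of a point `x`; for an orthonormal pair `(v, w)` these are
the coordinates of the orthogonal projection of `x` along the axis orthogonal to `v` and `w`. -/
noncomputable def shadow (v w x : E3) : ℝ × ℝ := (⟪v, x⟫_ℝ, ⟪w, x⟫_ℝ)

/-- The cylinders with orthonormal frames `(v i, w i)` and bases `B i` cover `K`. -/
def IsCover {ι : Type} (K : Set E3) (v w : ι → E3) (B : ι → Set (ℝ × ℝ)) : Prop :=
  (∀ i, ‖v i‖ = 1 ∧ ‖w i‖ = 1 ∧ ⟪v i, w i⟫_ℝ = 0) ∧ ∀ x ∈ K, ∃ i, shadow (v i) (w i) x ∈ B i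

/-- The directionwise relative area of a family of cylinders with respect to `K`. -/
noncomputable def relArea {ι : Type} [Fintype ι] (K : Set E3) (v w : ι → E3)
    (B : ι → Set (ℝ × ℝ)) : ENNReal :=
  ∑ i, volume (B i) / volume (shadow (v i) (w i) '' K)

/-- The nonzero vector `d` is orthogonal to `v` and `w`: the axis of a cylinder with frame
`(v, w)` is parallel to `d`. -/
def Along (v w d : E3) : Prop := d ≠ 0 ∧ ⟪v, d⟫_ℝ = 0 ∧ ⟪w, d⟫_ℝ = 0

theorem result :
    (∀ K : Set E3, Convex ℝ K → IsCompact K → (interior K).Nonempty →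
      ∀ {ι : Type} [Fintype ι] (v w : ι → E3) (B : ι → Set (ℝ × ℝ)), IsCover K v w B →
        (∀ (d : ℕ) (a : Fin d → E3), (∀ i, ∃ j, Along (v i) (w i) (a j)) →
          ∀ x : ℝ, 0 ≤ x → x ≤ 1 → 3 * x - 2 * x * Real.sqrt (x / d) ≤ 1 →
            ENNReal.ofReal x ≤ relArea K v w B) ∧
        ((∃ c : E3, ∀ x ∈ K, c + c - x ∈ K) → ENNReal.ofReal (5 / 12) ≤ relArea K v w B) ∧
        (∀ e f : E3, LinearIndependent ℝ ![e, f] →
          (∀ x ∈ K, ∀ s t : ℝ, x + s • e + t • f ∈ K → x + s • e ∈ K) →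
          (∀ i, ∃ α β : ℝ, Along (v i) (w i) (α • e + β • f)) →
            ENNReal.ofReal (1 / 2) ≤ relArea K v w B) ∧
        (∀ n : E3, n ≠ 0 → (∀ i, ∃ d, Along (v i) (w i) d ∧ ⟪n, d⟫_ℝ = 0) → ∀ A : ENNReal,
          (∀ v₀ w₀ d : E3, ‖v₀‖ = 1 → ‖w₀‖ = 1 → ⟪v₀, w₀⟫_ℝ = 0 → Along v₀ w₀ d →
            ⟪n, d⟫_ℝ = 0 → A ≤ volume (shadow v₀ w₀ '' K)) →
          A / 2 ≤ ∑ i, volume (B i))) ∧
    (∀ p : Fin 4 → E3, AffineIndependent ℝ p →
      ∀ {ι : Type} [Fintype ι] (v w : ι → E3) (B : ι → Set (ℝ × ℝ)),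
        IsCover (convexHull ℝ (Set.range p)) v w B →
        ENNReal.ofReal (343 / 1000) ≤ relArea (convexHull ℝ (Set.range p)) v w B ∧
        ((∀ i, ∃ a c, Along (v i) (w i) (p a - p c)) →
          ENNReal.ofReal (1 / 2) ≤ relArea (convexHull ℝ (Set.range p)) v w B) ∧
        ((∀ i, ∃ α β : ℝ, Along (v i) (w i) (α • (p 0 - p 1) + β • (p 2 - p 3))) →
          ENNReal.ofReal (1 / 2) ≤ relArea (convexHull ℝ (Set.range p)) v w B) ∧
        (∀ a : ℝ, (∀ i j, i ≠ j → dist (p i) (p j) = a) → ∀ A : ENNReal,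
          (∀ v₀ w₀ : E3, ‖v₀‖ = 1 → ‖w₀‖ = 1 → ⟪v₀, w₀⟫_ℝ = 0 →
            A ≤ volume (shadow v₀ w₀ '' convexHull ℝ (Set.range p))) →
          ENNReal.ofReal (79 / 200) * A ≤ ∑ i, volume (B i))) := by
  have h2 : ENNReal.ofReal (1 / 2) = (1 : ENNReal) / 2 := by
    rw [ENNReal.ofReal_div_of_pos (by norm_num)]; simp
  constructor
  · intro K hK hKc hKi ι _ v w B hcov
    obtain ⟨hfr, hcov⟩ := hcov
    have hv : ∀ i, ‖v i‖ = 1 := fun i => (hfr i).1
    have hw : ∀ i, ‖w i‖ = 1 := fun i => (hfr i).2.1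
    have hvw : ∀ i, ⟪v i, w i⟫_ℝ = 0 := fun i => (hfr i).2.2
    refine ⟨?_, ?_, ?_, ?_⟩
    · intro d a hax x hx0 hx1 hx
      have hax' : ∀ i, ∃ j : {j : Fin d // a j ≠ 0}, ⟪v i, a j.1⟫_ℝ = 0 ∧ ⟪w i, a j.1⟫_ℝ = 0 := by
        intro i
        obtain ⟨j, hj0, hj1, hj2⟩ := hax i
        exact ⟨⟨j, hj0⟩, hj1, hj2⟩
      have hcard : (Fintype.card {j : Fin d // a j ≠ 0} : ℝ) ≤ d := by
        have h := Fintype.card_subtype_le (fun j : Fin d => a j ≠ 0)
        rw [Fintype.card_fin] at h
        exact_mod_cast h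
      exact Vale.Agent.Helper11.direction_bound (by simp) K hK hKc hKi v w B hv hw hvw
        (fun j : {j : Fin d // a j ≠ 0} => a j.1) (fun j => j.2) hax' hcov hcard hx0 hx1 hx
    · rintro ⟨c, hKsym⟩
      exact Vale.Agent.Helper11.sym_cylinders_center (by simp) K hK hKc hKi c hKsym v w B hv hw
        hvw hcov
    · intro e f hef hpar hax
      have h := Vale.Agent.Helper11.para_sections (by simp) K hK hKc hKi e f hef hpar v w B hv hw
        hvw hax hcov
      rw [← h2] at h
      exact h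
    · intro n hn hax A hA
      have hax' : ∀ i, ∃ d : E3, d ≠ 0 ∧ ⟪n, d⟫_ℝ = 0 ∧ ⟪v i, d⟫_ℝ = 0 ∧ ⟪w i, d⟫_ℝ = 0 := by
        intro i
        obtain ⟨d, ⟨hd0, hvd, hwd⟩, hnd⟩ := hax i
        exact ⟨d, hd0, hnd, hvd, hwd⟩
      exact Vale.Agent.Helper11.coplanar_abs (by simp) K hK hKc v w B hv hw hvw n hn hax' hcov A
        (fun p q d hp hq hpq hd0 hnd hpd hqd => hA p q d hp hq hpq ⟨hd0, hpd, hqd⟩ hnd)
  · intro p hp ι _ v w B hcov
    obtain ⟨hfr, hcov⟩ := hcov
    have hv : ∀ i, ‖v i‖ = 1 := fun i => (hfr i).1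
    have hw : ∀ i, ‖w i‖ = 1 := fun i => (hfr i).2.1
    have hvw : ∀ i, ⟪v i, w i⟫_ℝ = 0 := fun i => (hfr i).2.2
    have htot : affineSpan ℝ (Set.range p) = ⊤ :=
      (hp.affineSpan_eq_top_iff_card_eq_finrank_add_one).mpr (by simp)
    refine ⟨?_, ?_, ?_, ?_⟩
    · exact Vale.Agent.Helper11.tetra_all (by simp)
        (⟨p, hp, htot⟩ : AffineBasis (Fin 4) ℝ E3) v w B hv hw hvw hcov
    · intro hedge
      have hedge' : ∀ i, ∃ a c, a ≠ c ∧ ⟪v i, p a - p c⟫_ℝ = 0 ∧ ⟪w i, p a - p c⟫_ℝ = 0 := by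
        intro i
        obtain ⟨a, c, h0, h1, h3⟩ := hedge i
        refine ⟨a, c, fun hac => h0 ?_, h1, h3⟩
        rw [hac, sub_self]
      exact Vale.Agent.Helper11.tetra_edges (by simp)
        (⟨p, hp, htot⟩ : AffineBasis (Fin 4) ℝ E3) v w B hv hw hvw hedge' hcov
    · intro hax
      have h := Vale.Agent.Helper11.tetra_coplanar (by simp)
        (⟨p, hp, htot⟩ : AffineBasis (Fin 4) ℝ E3) v w B hv hw hvw hax hcov
      rw [← h2] at h
      exact h
    · intro a hreg A hA
      have hd : p 0 - p 1 ≠ 0 := sub_ne_zero.mpr (fun h => by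
        have := hp.injective h
        exact absurd this (by decide))
      obtain ⟨v₀, w₀, hv₀, hw₀, hvw₀, hv₀e, hw₀e⟩ :=
        Vale.Agent.Helper11.exists_frame_orth (E := E3) (by simp) hd
      have h := Vale.Agent.Helper11.tetra_regular (by simp)
        (⟨p, hp, htot⟩ : AffineBasis (Fin 4) ℝ E3) hreg v w B hv hw hvw hcov
        hv₀ hw₀ hvw₀ (i₀ := 0) (j₀ := 1) (by decide) hv₀e hw₀e
      exact (mul_le_mul_right (hA v₀ w₀ hv₀ hw₀ hvw₀) _).trans h

end Vale.Agent.Results.P243.CylinderCoverings
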