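import Vale.Agent.Helper11.ManyCylSharp
import Vale.Agent.Helper11.TetraQ

/-!
# P243: cylinder coverings whose axes take few directions

A set `K` in Euclidean 3-space is covered by a finite family of cylinders.  The `i`-th
cylinder is described by an orthonormal pair `(v i, w i)` spanning the plane orthogonal to its
axis, and by its base `B i`, a subset of the coordinate plane `ℝ × ℝ` of that frame: the cylinder
is the set of all `x` with `(⟪v i, x⟫, ⟪w i, x⟫) ∈ B i`, and the orthogonal projection of `K`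
along its axis is, in the same coordinates, the image of `K` under `x ↦ (⟪v i, x⟫, ⟪w i, x⟫)`.
The axis of the `i`-th cylinder is parallel to a nonzero vector `a` exactly when
`⟪v i, a⟫ = 0` and `⟪w i, a⟫ = 0`.  Write `R` for the sum of the ratios
`area (B i) / area (projection of K along the i-th axis)`.

* First statement: `K` is any convex body and every axis is parallel to one of `d` given
  vectors.  Then `R` is at least every `x ∈ [0, 1]` with `3 x - 2 x √(x / d) ≤ 1`; in particular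
  `R ≥ 1 / 3 + 2 / (9 √(3 d))`.
* Second statement: `K` is any tetrahedron, the convex hull of affinely independent points
  `p 0, p 1, p 2, p 3`.  If every axis is parallel to one of the four edges `p 0 p 2`, `p 0 p 3`,
  `p 1 p 2`, `p 1 p 3` (all edges except the opposite pair `p 0 p 1`, `p 2 p 3`) or to one
  further arbitrary vector `c`, then `R ≥ 1 / 2`.  The same holds if every axis is parallel to
  some nonzero vector of the cone of all combinations with nonnegative coefficients of the four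
  edge vectors `p 2 - p 1`, `p 0 - p 3`, `p 1 - p 3`, `p 2 - p 0`, and also if every axis is
  parallel to some nonzero vector of the cone spanned in the same way by `p 0 - p 2`, `p 0 - p 3`,
  `p 1 - p 2`, `p 1 - p 3` (the directions of the segments joining the edge `p 2 p 3` to the
  edge `p 0 p 1`).
-/

namespace Vale.Agent.Results.P243.DirectionBound

open MeasureTheory
open scoped InnerProductSpace

/-- Euclidean 3-space. -/
abbrev E3 : Type := EuclideanSpace ℝ (Fin 3)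

/-- The coordinates `(⟪v, x⟫, ⟪w, x⟫)` of a point `x`; for an orthonormal pair `(v, w)` these are
the coordinates of the orthogonal projection of `x` along the axis orthogonal to `v` and `w`. -/
noncomputable def shadow (v w x : E3) : ℝ × ℝ := (⟪v, x⟫_ℝ, ⟪w, x⟫_ℝ)

/-- The cylinders with orthonormal frames `(v i, w i)` and bases `B i` cover `K`. -/
def IsCover {ι : Type} (K : Set E3) (v w : ι → E3) (B : ι → Set (ℝ × ℝ)) : Prop :=
  (∀ i, ‖v i‖ = 1 ∧ ‖w i‖ = 1 ∧ ⟪v i, w i⟫_ℝ = 0) ∧ ∀ x ∈ K, ∃ i, shadow (v i) (w i) x ∈ B i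

/-- The directionwise relative area of a family of cylinders with respect to `K`. -/
noncomputable def relArea {ι : Type} [Fintype ι] (K : Set E3) (v w : ι → E3)
    (B : ι → Set (ℝ × ℝ)) : ENNReal :=
  ∑ i, volume (B i) / volume (shadow (v i) (w i) '' K)

/-- The nonzero vector `d` is orthogonal to `v` and `w`: the axis of a cylinder with frame
`(v, w)` is parallel to `d`. -/
def Along (v w d : E3) : Prop := d ≠ 0 ∧ ⟪v, d⟫_ℝ = 0 ∧ ⟪w, d⟫_ℝ = 0

theorem result :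
    (∀ K : Set E3, Convex ℝ K → IsCompact K → (interior K).Nonempty →
      ∀ (ι : Type) [Fintype ι] (v w : ι → E3) (B : ι → Set (ℝ × ℝ)), IsCover K v w B →
      ∀ (d : ℕ) (a : Fin d → E3), (∀ i, ∃ j, Along (v i) (w i) (a j)) →
        (∀ x : ℝ, 0 ≤ x → x ≤ 1 → 3 * x - 2 * x * Real.sqrt (x / d) ≤ 1 →
          ENNReal.ofReal x ≤ relArea K v w B) ∧
        ENNReal.ofReal (1 / 3 + 2 / (9 * Real.sqrt (3 * d))) ≤ relArea K v w B) ∧
    (∀ p : Fin 4 → E3, AffineIndependent ℝ p →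
      ∀ (ι : Type) [Fintype ι] (v w : ι → E3) (B : ι → Set (ℝ × ℝ)),
      IsCover (convexHull ℝ (Set.range p)) v w B →
        (∀ c : E3, (∀ i, Along (v i) (w i) (p 0 - p 2) ∨ Along (v i) (w i) (p 0 - p 3)
            ∨ Along (v i) (w i) (p 1 - p 2) ∨ Along (v i) (w i) (p 1 - p 3)
            ∨ Along (v i) (w i) c) →
          ENNReal.ofReal (1 / 2) ≤ relArea (convexHull ℝ (Set.range p)) v w B) ∧
        ((∀ i, ∃ α β γ δ : ℝ, 0 ≤ α ∧ 0 ≤ β ∧ 0 ≤ γ ∧ 0 ≤ δ ∧ Along (v i) (w i)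
            (α • (p 2 - p 1) + β • (p 0 - p 3) + γ • (p 1 - p 3) + δ • (p 2 - p 0))) →
          ENNReal.ofReal (1 / 2) ≤ relArea (convexHull ℝ (Set.range p)) v w B) ∧
        ((∀ i, ∃ α β γ δ : ℝ, 0 ≤ α ∧ 0 ≤ β ∧ 0 ≤ γ ∧ 0 ≤ δ ∧ Along (v i) (w i)
            (α • (p 0 - p 2) + β • (p 0 - p 3) + γ • (p 1 - p 2) + δ • (p 1 - p 3))) →
          ENNReal.ofReal (1 / 2) ≤ relArea (convexHull ℝ (Set.range p)) v w B)) := by
  refine ⟨?_, ?_⟩
  · intro K hK hKc hKi ι _ v w B hcov d a hax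
    obtain ⟨hfr, hcov⟩ := hcov
    have hv : ∀ i, ‖v i‖ = 1 := fun i => (hfr i).1
    have hw : ∀ i, ‖w i‖ = 1 := fun i => (hfr i).2.1
    have hvw : ∀ i, ⟪v i, w i⟫_ℝ = 0 := fun i => (hfr i).2.2
    have hax' : ∀ i, ∃ j : {j : Fin d // a j ≠ 0}, ⟪v i, a j.1⟫_ℝ = 0 ∧ ⟪w i, a j.1⟫_ℝ = 0 := by
      intro i
      obtain ⟨j, hj0, hj1, hj2⟩ := hax i
      exact ⟨⟨j, hj0⟩, hj1, hj2⟩
    have hcard : (Fintype.card {j : Fin d // a j ≠ 0} : ℝ) ≤ d := by
      have h := Fintype.card_subtype_le (fun j : Fin d => a j ≠ 0)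
      rw [Fintype.card_fin] at h
      exact_mod_cast h
    have hgen : ∀ x : ℝ, 0 ≤ x → x ≤ 1 → 3 * x - 2 * x * Real.sqrt (x / d) ≤ 1 →
        ENNReal.ofReal x ≤ relArea K v w B :=
      fun x hx0 hx1 hx => Vale.Agent.Helper11.direction_bound (by simp) K hK hKc hKi v w B hv hw
        hvw (fun j : {j : Fin d // a j ≠ 0} => a j.1) (fun j => j.2) hax' hcov hcard hx0 hx1 hx
    refine ⟨hgen, ?_⟩
    have hd : (1 : ℝ) ≤ d := by
      obtain ⟨x₀, hx₀⟩ := hKi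
      obtain ⟨i, -⟩ := hcov x₀ (interior_subset hx₀)
      obtain ⟨j, -⟩ := hax i
      have h1 : 0 < d := Fin.pos j
      exact_mod_cast h1
    obtain ⟨h0, h1, h2⟩ := Vale.Agent.Helper11.explicit_value hd
    exact hgen _ h0 h1 h2
  · intro p hp ι _ v w B hcov
    obtain ⟨hfr, hcov⟩ := hcov
    have hv : ∀ i, ‖v i‖ = 1 := fun i => (hfr i).1
    have hw : ∀ i, ‖w i‖ = 1 := fun i => (hfr i).2.1
    have hvw : ∀ i, ⟪v i, w i⟫_ℝ = 0 := fun i => (hfr i).2.2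
    have htot : affineSpan ℝ (Set.range p) = ⊤ :=
      (hp.affineSpan_eq_top_iff_card_eq_finrank_add_one).mpr (by simp)
    refine ⟨?_, ?_, ?_⟩
    · intro c hax
      have hd : p 0 - p 2 ≠ 0 := sub_ne_zero.mpr (fun h => by
        have := hp.injective h
        exact absurd this (by decide))
      by_cases hc : c = 0
      · have hax' : ∀ i, (⟪v i, p 0 - p 2⟫_ℝ = 0 ∧ ⟪w i, p 0 - p 2⟫_ℝ = 0)
            ∨ (⟪v i, p 0 - p 3⟫_ℝ = 0 ∧ ⟪w i, p 0 - p 3⟫_ℝ = 0)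
            ∨ (⟪v i, p 1 - p 2⟫_ℝ = 0 ∧ ⟪w i, p 1 - p 2⟫_ℝ = 0)
            ∨ (⟪v i, p 1 - p 3⟫_ℝ = 0 ∧ ⟪w i, p 1 - p 3⟫_ℝ = 0)
            ∨ (⟪v i, p 0 - p 2⟫_ℝ = 0 ∧ ⟪w i, p 0 - p 2⟫_ℝ = 0) := by
          intro i
          rcases hax i with h | h | h | h | h
          · exact Or.inl h.2
          · exact Or.inr (Or.inl h.2)
          · exact Or.inr (Or.inr (Or.inl h.2))
          · exact Or.inr (Or.inr (Or.inr (Or.inl h.2)))
          · exact absurd hc h.1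
        exact Vale.Agent.Helper11.tetra_cycle (by simp)
          (⟨p, hp, htot⟩ : AffineBasis (Fin 4) ℝ E3) v w B hv hw hvw (p 0 - p 2) hd hax' hcov
      · have hax' : ∀ i, (⟪v i, p 0 - p 2⟫_ℝ = 0 ∧ ⟪w i, p 0 - p 2⟫_ℝ = 0)
            ∨ (⟪v i, p 0 - p 3⟫_ℝ = 0 ∧ ⟪w i, p 0 - p 3⟫_ℝ = 0)
            ∨ (⟪v i, p 1 - p 2⟫_ℝ = 0 ∧ ⟪w i, p 1 - p 2⟫_ℝ = 0)
            ∨ (⟪v i, p 1 - p 3⟫_ℝ = 0 ∧ ⟪w i, p 1 - p 3⟫_ℝ = 0)
            ∨ (⟪v i, c⟫_ℝ = 0 ∧ ⟪w i, c⟫_ℝ = 0) := by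
          intro i
          rcases hax i with h | h | h | h | h
          · exact Or.inl h.2
          · exact Or.inr (Or.inl h.2)
          · exact Or.inr (Or.inr (Or.inl h.2))
          · exact Or.inr (Or.inr (Or.inr (Or.inl h.2)))
          · exact Or.inr (Or.inr (Or.inr (Or.inr h.2)))
        exact Vale.Agent.Helper11.tetra_cycle (by simp)
          (⟨p, hp, htot⟩ : AffineBasis (Fin 4) ℝ E3) v w B hv hw hvw c hc hax' hcov
    · intro hcone
      have hcone' : ∀ i, ∃ α β γ δ : ℝ, 0 ≤ α ∧ 0 ≤ β ∧ 0 ≤ γ ∧ 0 ≤ δ ∧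
          α • (p 2 - p 1) + β • (p 0 - p 3) + γ • (p 1 - p 3) + δ • (p 2 - p 0) ≠ 0 ∧
          ⟪v i, α • (p 2 - p 1) + β • (p 0 - p 3) + γ • (p 1 - p 3) + δ • (p 2 - p 0)⟫_ℝ = 0 ∧
          ⟪w i, α • (p 2 - p 1) + β • (p 0 - p 3) + γ • (p 1 - p 3) + δ • (p 2 - p 0)⟫_ℝ
            = 0 := by
        intro i
        obtain ⟨α, β, γ, δ, hα, hβ, hγ, hδ, h0, h1, h2⟩ := hcone i
        exact ⟨α, β, γ, δ, hα, hβ, hγ, hδ, h0, h1, h2⟩
      exact Vale.Agent.Helper11.tetra_cone (by simp)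
        (⟨p, hp, htot⟩ : AffineBasis (Fin 4) ℝ E3) v w B hv hw hvw hcone' hcov
    · intro hcone
      have hcone' : ∀ i, ∃ α β γ δ : ℝ, 0 ≤ α ∧ 0 ≤ β ∧ 0 ≤ γ ∧ 0 ≤ δ ∧
          α • (p 0 - p 2) + β • (p 0 - p 3) + γ • (p 1 - p 2) + δ • (p 1 - p 3) ≠ 0 ∧
          ⟪v i, α • (p 0 - p 2) + β • (p 0 - p 3) + γ • (p 1 - p 2) + δ • (p 1 - p 3)⟫_ℝ = 0 ∧
          ⟪w i, α • (p 0 - p 2) + β • (p 0 - p 3) + γ • (p 1 - p 2) + δ • (p 1 - p 3)⟫_ℝ
            = 0 := by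
        intro i
        obtain ⟨α, β, γ, δ, hα, hβ, hγ, hδ, h0, h1, h2⟩ := hcone i
        exact ⟨α, β, γ, δ, hα, hβ, hγ, hδ, h0, h1, h2⟩
      exact Vale.Agent.Helper11.tetra_qcone (by simp)
        (⟨p, hp, htot⟩ : AffineBasis (Fin 4) ℝ E3) v w B hv hw hvw hcone' hcov

end Vale.Agent.Results.P243.DirectionBound
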