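import Vale.Agent.Helper11.SymCyl
import Vale.Agent.Helper11.RhombusPrism

/-!
# P243: cylinder coverings of centrally symmetric convex bodies

A convex body `K` in Euclidean 3-space that is symmetric about a point `c` is covered by a finite
family of cylinders with arbitrary bases.  The `i`-th cylinder is described by an orthonormal
pair `(v i, w i)` spanning the plane orthogonal to its axis, and by its base `B i`, a subset of
the coordinate plane `ℝ × ℝ` of that frame: the cylinder is the set of all `x` with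
`(⟪v i, x⟫, ⟪w i, x⟫) ∈ B i`, and the orthogonal projection of `K` along its axis is, in the same
coordinates, the image of `K` under `x ↦ (⟪v i, x⟫, ⟪w i, x⟫)`.

* For arbitrary axis directions, the sum `R` of the ratios
  `area (B i) / area (projection of K along the i-th axis)` is at least `5 / 12`, and the sum of
  the base areas is at least `5 / 12` times any number `A` that is at most every one of these
  projection areas (in particular `5 / 12` times the minimal projection area of `K`).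
* If every axis is parallel to one of two nonzero vectors `a`, `b`, then `R ≥ 3 / 4`, and the
  sum of the base areas is at least `3 / 4` times any such `A`.
* The constant `3 / 4` is attained: some centrally symmetric convex body is covered by two
  cylinders with `R = 3 / 4`.
-/

namespace Vale.Agent.Results.P243.SymmetricBodies

open MeasureTheory
open scoped InnerProductSpace

theorem result :
    (∀ (K : Set (EuclideanSpace ℝ (Fin 3))), Convex ℝ K → IsCompact K → (interior K).Nonempty →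
      ∀ c : EuclideanSpace ℝ (Fin 3), (∀ x ∈ K, c + c - x ∈ K) →
      ∀ (ι : Type) [Fintype ι] (v w : ι → EuclideanSpace ℝ (Fin 3)) (B : ι → Set (ℝ × ℝ)),
      (∀ i, ‖v i‖ = 1) → (∀ i, ‖w i‖ = 1) → (∀ i, ⟪v i, w i⟫_ℝ = 0) →
      (∀ x ∈ K, ∃ i, (⟪v i, x⟫_ℝ, ⟪w i, x⟫_ℝ) ∈ B i) →
      (ENNReal.ofReal (5 / 12) ≤ ∑ i, volume (B i) /
          volume ((fun y : EuclideanSpace ℝ (Fin 3) => (⟪v i, y⟫_ℝ, ⟪w i, y⟫_ℝ)) '' K)) ∧
      (∀ A : ENNReal,
        (∀ i, A ≤ volume ((fun y : EuclideanSpace ℝ (Fin 3) => (⟪v i, y⟫_ℝ, ⟪w i, y⟫_ℝ)) '' K)) →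
        ENNReal.ofReal (5 / 12) * A ≤ ∑ i, volume (B i)) ∧
      (∀ a b : EuclideanSpace ℝ (Fin 3), a ≠ 0 → b ≠ 0 →
        (∀ i, (⟪v i, a⟫_ℝ = 0 ∧ ⟪w i, a⟫_ℝ = 0) ∨ (⟪v i, b⟫_ℝ = 0 ∧ ⟪w i, b⟫_ℝ = 0)) →
        ((3 : ENNReal) / 4 ≤ ∑ i, volume (B i) /
          volume ((fun y : EuclideanSpace ℝ (Fin 3) => (⟪v i, y⟫_ℝ, ⟪w i, y⟫_ℝ)) '' K)) ∧
        ∀ A : ENNReal,
          (∀ i, A ≤
            volume ((fun y : EuclideanSpace ℝ (Fin 3) => (⟪v i, y⟫_ℝ, ⟪w i, y⟫_ℝ)) '' K)) →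
          (3 : ENNReal) / 4 * A ≤ ∑ i, volume (B i))) ∧
    (∃ (K : Set (EuclideanSpace ℝ (Fin 3))) (v₁ w₁ v₂ w₂ : EuclideanSpace ℝ (Fin 3))
      (B₁ B₂ : Set (ℝ × ℝ)),
      Convex ℝ K ∧ IsCompact K ∧ (interior K).Nonempty ∧
      (∃ c : EuclideanSpace ℝ (Fin 3), ∀ x ∈ K, c + c - x ∈ K) ∧
      ‖v₁‖ = 1 ∧ ‖w₁‖ = 1 ∧ ⟪v₁, w₁⟫_ℝ = 0 ∧ ‖v₂‖ = 1 ∧ ‖w₂‖ = 1 ∧ ⟪v₂, w₂⟫_ℝ = 0 ∧
      (∀ x ∈ K, (⟪v₁, x⟫_ℝ, ⟪w₁, x⟫_ℝ) ∈ B₁ ∨ (⟪v₂, x⟫_ℝ, ⟪w₂, x⟫_ℝ) ∈ B₂) ∧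
      volume B₁ / volume ((fun x : EuclideanSpace ℝ (Fin 3) => (⟪v₁, x⟫_ℝ, ⟪w₁, x⟫_ℝ)) '' K)
        + volume B₂ / volume ((fun x : EuclideanSpace ℝ (Fin 3) => (⟪v₂, x⟫_ℝ, ⟪w₂, x⟫_ℝ)) '' K)
        = 3 / 4) := by
  refine ⟨?_, Vale.Agent.Helper11.rhombus_prism_example⟩
  intro K hK hKc hKi c hKsym ι _ v w B hv hw hvw hcov
  have h := Vale.Agent.Helper11.sym_cylinders_center (by simp) K hK hKc hKi c hKsym v w B hv hw
    hvw hcov
  refine ⟨h, fun A hA => Vale.Agent.Helper11.abs_form _ _ _ A h hA, ?_⟩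
  intro a b ha hb hax
  have h2 := Vale.Agent.Helper11.two_directions_sym (by simp) K hK hKc hKi
    ⟨c, fun x hx => by
      have := hKsym x hx
      rwa [← two_smul ℝ c] at this⟩ v w B hv hw hvw a b ha hb hax hcov
  exact ⟨h2, fun A hA => Vale.Agent.Helper11.abs_form _ _ _ A h2 hA⟩

end Vale.Agent.Results.P243.SymmetricBodies
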